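import Vale.Agent.P139.E.Sum

/-! P139 part E: weighted `ℓ¹` norms of convolutions, and `nl = nlc` on `ℓ¹`. -/

noncomputable section

open MeasureTheory Filter Topology Set Complex
open scoped ENNReal ComplexConjugate

namespace Vale.Agent.P139

/-- The weighted norm with values in `ℝ≥0∞`. -/
def eN (w : Z12 → ℝ≥0∞) (c : Z12 → ℂ) : ℝ≥0∞ := ∑' n, w n * ‖c n‖ₑ

theorem e_N_one (c : Z12 → ℂ) : eN 1 c = ∑' n, ‖c n‖ₑ := by simp [eN]

theorem e_N_ne {c : Z12 → ℂ} : eN 1 c ≠ ∞ ↔ Summable fun n => ‖c n‖ := by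
  rw [e_N_one, tsum_enorm_ne_top_iff_summable_norm]

theorem e_N_st {w : Z12 → ℝ≥0∞} (hw : ∀ n, w (-n) = w n) (c : Z12 → ℂ) :
    eN w (st c) = eN w c := by
  unfold eN
  rw [← (Equiv.neg Z12).tsum_eq]
  refine tsum_congr fun n => ?_
  simp [st, hw, enorm_eq_nnnorm]

theorem e_conv_sum (a b : Z12 → ℝ≥0∞) : ∑' n, ∑' k, a k * b (n - k) = (∑' k, a k) * ∑' n, b n := by
  rw [ENNReal.tsum_comm, ← ENNReal.tsum_mul_right]
  refine tsum_congr fun k => ?_
  rw [ENNReal.tsum_mul_left]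
  congr 1
  exact (Equiv.subRight k).tsum_eq b

theorem e_cv_le (c c' : Z12 → ℂ) (n : Z12) : ‖cv c c' n‖ₑ ≤ ∑' k, ‖c k‖ₑ * ‖c' (n - k)‖ₑ :=
  enorm_tsum_le_tsum_enorm.trans (by simp only [enorm_mul]; exact le_rfl)

theorem e_N_cv1 (c c' : Z12 → ℂ) : eN 1 (cv c c') ≤ eN 1 c * eN 1 c' := by
  simp only [e_N_one]
  rw [← e_conv_sum]
  exact ENNReal.tsum_le_tsum fun n => e_cv_le c c' n

theorem e_N_cv {w : Z12 → ℝ≥0∞} {K : ℝ≥0∞} (hw : ∀ n k, w n ≤ K * (w k + w (n - k)))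
    (c c' : Z12 → ℂ) : eN w (cv c c') ≤ K * (eN w c * eN 1 c' + eN 1 c * eN w c') := by
  simp only [e_N_one]
  unfold eN
  rw [← e_conv_sum, ← e_conv_sum, ← ENNReal.tsum_add, ← ENNReal.tsum_mul_left]
  refine ENNReal.tsum_le_tsum fun n => ?_
  rw [← ENNReal.tsum_add, ← ENNReal.tsum_mul_left]
  refine (mul_le_mul_right (e_cv_le c c' n) _).trans ?_
  rw [← ENNReal.tsum_mul_left]
  refine ENNReal.tsum_le_tsum fun k => ?_
  refine (mul_le_mul_left (hw n k) _).trans (le_of_eq ?_)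
  ring

theorem e_N_nlc1 (m : ℕ) (c : Z12 → ℂ) : eN 1 (nlc m c) ≤ eN 1 c ^ (2 * m + 1) := by
  induction m with
  | zero => simp [nlc]
  | succ m ih =>
    calc eN 1 (nlc (m + 1) c) ≤ eN 1 (cv c (st c)) * eN 1 (nlc m c) := e_N_cv1 _ _
      _ ≤ (eN 1 c * eN 1 (st c)) * eN 1 c ^ (2 * m + 1) := mul_le_mul' (e_N_cv1 _ _) ih
      _ = _ := by rw [e_N_st (fun _ => rfl)]; ring

theorem e_N_nlc (m : ℕ) {K B : ℝ≥0∞} (hK : K ≠ ∞) (hB : B ≠ ∞) : ∃ D : ℝ≥0∞, D ≠ ∞ ∧
    ∀ w : Z12 → ℝ≥0∞, (∀ n, w (-n) = w n) → (∀ n k, w n ≤ K * (w k + w (n - k))) →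
      ∀ c : Z12 → ℂ, eN 1 c ≤ B → eN w (nlc m c) ≤ D * eN w c := by
  induction m with
  | zero => exact ⟨1, ENNReal.one_ne_top, fun w _ _ c _ => by simp [nlc]⟩
  | succ m ih =>
    obtain ⟨D, hD, h⟩ := ih
    refine ⟨K * (K * (B + B) * B ^ (2 * m + 1) + B * B * D), by finiteness,
      fun w h1 h2 c hc => ?_⟩
    have a1 : eN w (cv c (st c)) ≤ K * (B + B) * eN w c := by
      refine (e_N_cv h2 _ _).trans ?_
      rw [e_N_st h1, e_N_st (fun _ => rfl)]
      calc K * (eN w c * eN 1 c + eN 1 c * eN w c) ≤ K * (eN w c * B + B * eN w c) := by gcongr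
        _ = _ := by ring
    have a2 : eN 1 (cv c (st c)) ≤ B * B := by
      refine (e_N_cv1 _ _).trans ?_
      rw [e_N_st (fun _ => rfl)]
      gcongr
    have a3 : eN 1 (nlc m c) ≤ B ^ (2 * m + 1) := (e_N_nlc1 m c).trans (by gcongr)
    have a4 := h w h1 h2 c hc
    calc eN w (nlc (m + 1) c)
        ≤ K * (eN w (cv c (st c)) * eN 1 (nlc m c) + eN 1 (cv c (st c)) * eN w (nlc m c)) :=
          e_N_cv h2 _ _
      _ ≤ K * (K * (B + B) * eN w c * B ^ (2 * m + 1) + B * B * (D * eN w c)) := by gcongr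
      _ = _ := by ring

theorem e_l1_cv {c c' : Z12 → ℂ} (h : Summable fun n => ‖c n‖) (h' : Summable fun n => ‖c' n‖) :
    Summable fun n => ‖cv c c' n‖ :=
  e_N_ne.1 (ne_top_of_le_ne_top (ENNReal.mul_ne_top (e_N_ne.2 h) (e_N_ne.2 h')) (e_N_cv1 c c'))

theorem e_l1_st {c : Z12 → ℂ} (h : Summable fun n => ‖c n‖) : Summable fun n => ‖st c n‖ :=
  e_N_ne.1 (by rw [e_N_st (fun _ => rfl)]; exact e_N_ne.2 h)

theorem e_l1_nlc (m : ℕ) {c : Z12 → ℂ} (h : Summable fun n => ‖c n‖) :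
    Summable fun n => ‖nlc m c n‖ :=
  e_N_ne.1 (ne_top_of_le_ne_top (ENNReal.pow_ne_top (e_N_ne.2 h)) (e_N_nlc1 m c))

theorem e_norm_exp (n : Z12) (x : Fin 12 → ℝ) : ‖exp (I * dotZ n x)‖ = 1 := by
  rw [mul_comm]
  exact norm_exp_ofReal_mul_I _

theorem e_dot_sub (n k : Z12) (x : Fin 12 → ℝ) : dotZ (n - k) x = dotZ n x - dotZ k x := by
  simp [dotZ, sub_mul, Finset.sum_sub_distrib]

theorem e_dot_neg (n : Z12) (x : Fin 12 → ℝ) : dotZ (-n) x = -dotZ n x := by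
  simp [dotZ, Finset.sum_neg_distrib]

/-- The shear `(n, k) ↦ (k, n - k)`. -/
def eSh : Z12 × Z12 ≃ Z12 × Z12 where
  toFun q := (q.2, q.1 - q.2)
  invFun p := (p.1 + p.2, p.1)
  left_inv q := by simp
  right_inv p := by simp

theorem e_ev_cv {c c' : Z12 → ℂ} (h : Summable fun n => ‖c n‖) (h' : Summable fun n => ‖c' n‖)
    (x : Fin 12 → ℝ) : evT (cv c c') x = evT c x * evT c' x := by
  have a1 : Summable fun n => ‖c n * exp (I * dotZ n x)‖ := by
    simpa only [norm_mul, e_norm_exp, mul_one] using h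
  have a2 : Summable fun n => ‖c' n * exp (I * dotZ n x)‖ := by
    simpa only [norm_mul, e_norm_exp, mul_one] using h'
  have a3 := eSh.summable_iff.2 (summable_mul_of_summable_norm a1 a2)
  unfold evT
  rw [tsum_mul_tsum_of_summable_norm a1 a2, ← eSh.tsum_eq]
  refine Eq.trans ?_ a3.tsum_prod.symm
  refine tsum_congr fun n => ?_
  rw [cv, ← tsum_mul_right]
  refine tsum_congr fun k => ?_
  have : exp (I * dotZ n x) = exp (I * dotZ k x) * exp (I * dotZ (n - k) x) := by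
    rw [← exp_add, e_dot_sub]
    congr 1
    push_cast
    ring
  simp only [Function.comp, eSh, Equiv.coe_fn_mk, this]
  ring

theorem e_ev_st (c : Z12 → ℂ) (x : Fin 12 → ℝ) : evT (st c) x = conj (evT c x) := by
  unfold evT
  rw [conj_tsum, ← (Equiv.neg Z12).tsum_eq]
  refine tsum_congr fun n => ?_
  simp [st, e_dot_neg, ← exp_conj]

theorem e_ev_nlc (m : ℕ) {c : Z12 → ℂ} (h : Summable fun n => ‖c n‖) (x : Fin 12 → ℝ) :
    evT (nlc m c) x = (‖evT c x‖ : ℂ) ^ (2 * m) * evT c x := by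
  induction m with
  | zero => simp [nlc]
  | succ m ih =>
    rw [nlc, e_ev_cv (e_l1_cv h (e_l1_st h)) (e_l1_nlc m h), e_ev_cv h (e_l1_st h), e_ev_st, ih,
      mul_conj']
    ring

theorem e_int_one (k : ℤ) : ∫ x in Ioc (0 : ℝ) (2 * Real.pi), exp (I * (k * x)) =
    if k = 0 then ((2 * Real.pi : ℝ) : ℂ) else 0 := by
  have hp : (0 : ℝ) ≤ 2 * Real.pi := by positivity
  rw [← intervalIntegral.integral_of_le hp]
  split_ifs with hk
  · simp [hk]
  · have h1 : I * (k : ℂ) ≠ 0 := mul_ne_zero I_ne_zero (by exact_mod_cast hk)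
    simp only [← mul_assoc]
    rw [integral_exp_mul_complex h1]
    have : exp (I * k * ((2 * Real.pi : ℝ) : ℂ)) = 1 := by
      rw [← exp_int_mul_two_pi_mul_I k]
      congr 1
      push_cast
      ring
    rw [this]
    simp

theorem e_int_cube (k : Z12) :
    ∫ x in Set.pi univ fun _ : Fin 12 => Ioc (0 : ℝ) (2 * Real.pi), exp (I * dotZ k x) =
      if k = 0 then (((2 * Real.pi) ^ 12 : ℝ) : ℂ) else 0 := by
  have e : ∀ x : Fin 12 → ℝ, exp (I * dotZ k x) = ∏ j, exp (I * (k j * x j)) := fun x => by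
    rw [← exp_sum, ← Finset.mul_sum]
    simp [dotZ]
  simp only [e]
  rw [volume_pi, Measure.restrict_pi_pi,
    integral_fintype_prod_eq_prod (f := fun j (x : ℝ) => exp (I * (k j * x)))]
  simp only [e_int_one]
  split_ifs with hk
  · simp [hk]
  · obtain ⟨j, hj⟩ := Function.ne_iff.1 hk
    exact Finset.prod_eq_zero (Finset.mem_univ j) (if_neg hj)

theorem e_coef_ev {c : Z12 → ℂ} (h : Summable fun n => ‖c n‖) : coef (evT c) = c := by
  funext n
  have hv : volume (Set.pi univ fun _ : Fin 12 => Ioc (0 : ℝ) (2 * Real.pi)) < ∞ := by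
    rw [volume_pi, Measure.pi_pi]
    exact ENNReal.prod_lt_top fun _ _ => measure_Ioc_lt_top
  have : IsFiniteMeasure (volume.restrict
      (Set.pi univ fun _ : Fin 12 => Ioc (0 : ℝ) (2 * Real.pi))) := ⟨by simpa using hv⟩
  have e : ∀ x, evT c x * exp (-I * dotZ n x) = ∑' k, c k * exp (I * dotZ (k - n) x) := fun x => by
    rw [evT, ← tsum_mul_right]
    refine tsum_congr fun k => ?_
    rw [mul_assoc, ← exp_add, e_dot_sub]
    congr 2
    push_cast
    ring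
  unfold coef
  simp only [e]
  rw [← integral_tsum_of_summable_integral_norm]
  · simp only [integral_const_mul, e_int_cube, sub_eq_zero, mul_ite, mul_zero]
    rw [tsum_ite_eq]
    have : ((2 * Real.pi) ^ 12 : ℝ) ≠ 0 := by positivity
    have : (((2 * Real.pi) ^ 12 : ℝ) : ℂ) ≠ 0 := by exact_mod_cast this
    rw [ofReal_inv]
    field_simp
  · intro k
    refine Integrable.of_bound (C := ‖c k‖) (Continuous.aestronglyMeasurable ?_)
      (Eventually.of_forall fun x => by simp only [norm_mul, e_norm_exp, mul_one, le_refl])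
    unfold dotZ
    fun_prop
  · simp only [norm_mul, e_norm_exp, mul_one, integral_const, smul_eq_mul]
    exact h.mul_left _

theorem e_nl_eq (m : ℕ) {c : Z12 → ℂ} (h : Summable fun n => ‖c n‖) :
    nl (2 * m + 1) c = nlc m c := by
  rw [nl, ← e_coef_ev (e_l1_nlc m h)]
  congr 1
  funext x
  rw [e_ev_nlc m h, Nat.add_sub_cancel]

end Vale.Agent.P139
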