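import Vale.Agent.P139.E.Alg

/-! P139 part E: persistence of the weighted `ℓ¹` norm. -/

noncomputable section

open MeasureTheory Filter Topology Set Complex
open scoped ENNReal ComplexConjugate

namespace Vale.Agent.P139

theorem e_sum_lint {ι : Type} (μ : Measure ℝ) (f : ι → ℝ → ℝ≥0∞) :
    ∑' n, ∫⁻ s, f n s ∂μ ≤ ∫⁻ s, ∑' n, f n s ∂μ := by
  classical
  rw [ENNReal.tsum_eq_iSup_sum]
  refine iSup_le fun F => ?_
  have : ∑ n ∈ F, ∫⁻ s, f n s ∂μ ≤ ∫⁻ s, ∑ n ∈ F, f n s ∂μ := by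
    induction F using Finset.induction_on with
    | empty => simp
    | insert a F ha ih =>
      simp only [Finset.sum_insert ha]
      exact (add_le_add_right ih _).trans (le_lintegral_add _ _)
  exact this.trans (lintegral_mono fun s => ENNReal.sum_le_tsum F)

theorem e_gron {φ : ℝ → ℝ≥0∞} {T D : ℝ} {A B : ℝ≥0∞} (hD : 0 < D) (hB : B ≠ ∞)
    (hb : ∀ t ∈ Icc 0 T, φ t ≤ B)
    (h : ∀ t ∈ Icc 0 T, φ t ≤ A + ∫⁻ s in Ioc 0 t, ENNReal.ofReal D * φ s) :
    ∀ t ∈ Icc 0 T, φ t ≤ ENNReal.ofReal (Real.exp (2 * D * T)) * (A + A) := by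
  set M : ℝ≥0∞ := ⨆ t ∈ Icc 0 T, ENNReal.ofReal (Real.exp (-(2 * D * t))) * φ t with hM
  have e1 : ∀ t ∈ Icc 0 T, ENNReal.ofReal (Real.exp (-(2 * D * t))) ≤ 1 := fun t ht =>
    ENNReal.ofReal_le_one.2 (Real.exp_le_one_iff.2 (by nlinarith [ht.1]))
  have hMB : M ≤ B := iSup₂_le fun t ht => by
    simpa using mul_le_mul' (e1 t ht) (hb t ht)
  have hMt : M ≠ ∞ := ne_top_of_le_ne_top hB hMB
  have hφ : ∀ s ∈ Icc 0 T, φ s ≤ ENNReal.ofReal (Real.exp (2 * D * s)) * M := fun s hs => by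
    have : ENNReal.ofReal (Real.exp (-(2 * D * s))) * φ s ≤ M :=
      le_iSup₂ (f := fun t (_ : t ∈ Icc 0 T) => ENNReal.ofReal (Real.exp (-(2 * D * t))) * φ t) s hs
    refine le_trans (le_of_eq ?_) (mul_le_mul_right this _)
    rw [← mul_assoc, ← ENNReal.ofReal_mul (Real.exp_pos _).le, ← Real.exp_add]
    simp
  have hI : ∀ t ∈ Icc 0 T, ∫⁻ s in Ioc 0 t, ENNReal.ofReal D * φ s ≤
      ENNReal.ofReal (Real.exp (2 * D * t) / 2) * M := fun t ht => by
    have hd : ∀ s : ℝ, HasDerivAt (fun s => Real.exp (2 * D * s) / 2)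
        (D * Real.exp (2 * D * s)) s := fun s => by
      have := (((hasDerivAt_id s).const_mul (2 * D)).exp).div_const 2
      refine this.congr_deriv ?_
      simp only [id]
      ring
    have hc : Continuous fun s => D * Real.exp (2 * D * s) := by fun_prop
    have h1 := intervalIntegral.integral_eq_sub_of_hasDerivAt (a := 0) (b := t)
      (fun s _ => hd s) (hc.intervalIntegrable _ _)
    rw [intervalIntegral.integral_of_le ht.1] at h1
    calc ∫⁻ s in Ioc 0 t, ENNReal.ofReal D * φ s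
        ≤ ∫⁻ s in Ioc 0 t, ENNReal.ofReal (D * Real.exp (2 * D * s)) * M := by
          refine setLIntegral_mono' measurableSet_Ioc fun s hs => ?_
          rw [ENNReal.ofReal_mul hD.le, mul_assoc]
          exact mul_le_mul_right (hφ s ⟨hs.1.le, hs.2.trans ht.2⟩) _
      _ = ENNReal.ofReal (∫ s in Ioc 0 t, D * Real.exp (2 * D * s)) * M := by
          rw [lintegral_mul_const' _ _ hMt, ofReal_integral_eq_lintegral_ofReal
            (hc.intervalIntegrable 0 t).1 (Eventually.of_forall fun s => by positivity)]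
      _ ≤ _ := by
          rw [h1]
          have := Real.exp_pos (2 * D * 0)
          gcongr
          linarith
  have hM2 : M ≤ A + M / 2 := iSup₂_le fun t ht => by
    refine (mul_le_mul_right ((h t ht).trans (add_le_add_right (hI t ht) _)) _).trans ?_
    rw [mul_add, ← mul_assoc, ← ENNReal.ofReal_mul (Real.exp_pos _).le, ← mul_div_assoc,
      ← Real.exp_add, neg_add_cancel, Real.exp_zero]
    refine add_le_add (by simpa using mul_le_mul_left (e1 t ht) A) (le_of_eq ?_)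
    rw [ENNReal.ofReal_div_of_pos two_pos, ENNReal.div_eq_inv_mul, ENNReal.div_eq_inv_mul]
    simp
  have hM3 : M / 2 ≤ A := by
    have h2 : M / 2 ≠ ∞ := by finiteness
    rw [← ENNReal.add_le_add_iff_right h2, ENNReal.add_halves]
    exact hM2
  have hM4 : M ≤ A + A := hM2.trans (add_le_add_right hM3 _)
  intro t ht
  refine (hφ t ht).trans (mul_le_mul' (ENNReal.ofReal_le_ofReal (Real.exp_le_exp.2 ?_)) hM4)
  nlinarith [ht.2]

theorem e_enorm_exp (a b : ℝ) : ‖exp (-I * a * b)‖ₑ = 1 := by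
  have : ‖exp (-I * a * b)‖ = 1 := by simp [norm_exp]
  rw [← ofReal_norm, this, ENNReal.ofReal_one]

theorem e_duh_N {m : ℕ} {c : Z12 → ℂ} {u : ℝ → Z12 → ℂ} {t : ℝ} (ht : 0 ≤ t)
    (h : ∀ n, u t n = exp (-I * nsq n * t) * c n -
      I * ∫ s in (0 : ℝ)..t, exp (-I * nsq n * (t - s)) * nlc m (u s) n) (w : Z12 → ℝ≥0∞) :
    eN w (u t) ≤ eN w c + ∫⁻ s in Ioc 0 t, eN w (nlc m (u s)) := by
  unfold eN
  refine le_trans ?_ (add_le_add_right (e_sum_lint _ _) _)
  rw [← ENNReal.tsum_add]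
  refine ENNReal.tsum_le_tsum fun n => ?_
  refine le_trans ?_ (add_le_add_right (lintegral_const_mul_le _ _) _)
  rw [← mul_add, h n]
  refine mul_le_mul_right (enorm_sub_le.trans (add_le_add ?_ ?_)) _
  · rw [enorm_mul, e_enorm_exp, one_mul]
  · rw [enorm_mul, intervalIntegral.integral_of_le ht, ← ofReal_norm I, norm_I, ENNReal.ofReal_one,
      one_mul]
    refine (enorm_integral_le_lintegral_enorm _).trans (le_of_eq (lintegral_congr fun s => ?_))
    rw [enorm_mul, ← ofReal_sub, e_enorm_exp, one_mul]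

theorem e_N_SW {c : Z12 → ℂ} {B : ℝ≥0∞} (hB : B ≠ ∞) (h : ∀ R, 0 ≤ R → eN (eW R) c ≤ B) :
    SW c ∧ wn 1 c ≤ B.toReal := by
  have h0 : ∀ n, 0 ≤ Wt (zE n) := fun n => zero_le_one.trans (e_Wt_one _)
  have h1 : ∀ n, 0 ≤ Wt (zE n) * ‖c n‖ := fun n => mul_nonneg (h0 n) (norm_nonneg _)
  have key : ∀ F : Finset Z12, ∑ n ∈ F, Wt (zE n) * ‖c n‖ ≤ B.toReal := fun F => by
    rw [← ENNReal.ofReal_le_iff_le_toReal hB, ENNReal.ofReal_sum_of_nonneg fun n _ => h1 n]
    refine le_trans ?_ (h (∑ n ∈ F, Wt (zE n)) (Finset.sum_nonneg fun n _ => h0 n))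
    refine le_trans (Finset.sum_le_sum fun n hn => ?_) (ENNReal.sum_le_tsum F)
    have : Wt (zE n) ≤ ∑ n ∈ F, Wt (zE n) :=
      Finset.single_le_sum (f := fun n => Wt (zE n)) (fun n _ => h0 n) hn
    rw [eW, min_eq_left this, ENNReal.ofReal_mul (h0 n), ofReal_norm]
  refine ⟨summable_of_sum_le h1 key, ?_⟩
  simp only [wn, one_smul]
  exact Real.tsum_le_of_sum_le h1 key

theorem e_N_le {c : Z12 → ℂ} (hc : SW c) (R : ℝ) :
    eN (eW R) c ≤ ENNReal.ofReal (∑' n, Wt (zE n) * ‖c n‖) := by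
  have h0 : ∀ n, 0 ≤ Wt (zE n) := fun n => zero_le_one.trans (e_Wt_one _)
  rw [ENNReal.ofReal_tsum_of_nonneg (fun n => mul_nonneg (h0 n) (norm_nonneg _)) hc]
  refine ENNReal.tsum_le_tsum fun n => ?_
  rw [ENNReal.ofReal_mul (h0 n), ofReal_norm]
  exact mul_le_mul_left (e_W_le' R n) _

/-- Persistence of regularity. -/
theorem e_persist {m : ℕ} {c : Z12 → ℂ} (hc : SW c) (h : IsGlobal (2 * m + 1) c) :
    ∃ v, TSol m v ∧ v 0 = c := by
  obtain ⟨k, hk, u, hu⟩ := h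
  obtain ⟨S, hS⟩ := e_H_l1 hk
  have l1 : ∀ t, 0 ≤ t → Summable fun n => ‖u t n‖ := fun t ht => (hS _ (hu.1 t ht)).1
  have u0 : u 0 = c := funext fun n => by simpa using hu.2.2 0 le_rfl n
  have duh : ∀ t : ℝ, 0 ≤ t → ∀ n, u t n = exp (-I * nsq n * t) * c n -
      I * ∫ s in (0 : ℝ)..t, exp (-I * nsq n * (t - s)) * nlc m (u s) n := fun t ht n => by
    rw [hu.2.2 t ht n]
    congr 2
    refine intervalIntegral.integral_congr fun s hs => ?_
    rw [uIcc_of_le ht] at hs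
    simp only [e_nl_eq m (l1 s hs.1)]
  refine ⟨u, ⟨fun T => ?_, e_sol_cont hu, by rw [u0]; exact duh⟩, u0⟩
  obtain ⟨B, hB⟩ := e_sol_bdd hk hu T
  have hB' : ∀ t ∈ Icc 0 T, eN 1 (u t) ≤ ENNReal.ofReal B := fun t ht => by
    refine le_trans (le_of_eq ?_) (ENNReal.ofReal_le_ofReal (hB t ht))
    rw [ENNReal.ofReal_tsum_of_nonneg (fun _ => norm_nonneg _) (l1 t ht.1), e_N_one]
    simp only [ofReal_norm]
  obtain ⟨D, hD, hN⟩ := e_N_nlc m (K := ENNReal.ofReal (2 ^ 20)) (B := ENNReal.ofReal B)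
    ENNReal.ofReal_ne_top ENNReal.ofReal_ne_top
  have hD1 : D ≤ ENNReal.ofReal (D.toReal + 1) := by
    conv_lhs => rw [← ENNReal.ofReal_toReal hD]
    exact ENNReal.ofReal_le_ofReal (by linarith)
  set A := ENNReal.ofReal (∑' n, Wt (zE n) * ‖c n‖) with hA
  refine ⟨(ENNReal.ofReal (Real.exp (2 * (D.toReal + 1) * T)) * (A + A)).toReal, fun t ht => ?_⟩
  refine e_N_SW (by finiteness) fun R hR => ?_
  refine e_gron (φ := fun t => eN (eW R) (u t)) (B := ENNReal.ofReal R * ENNReal.ofReal B)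
    (by positivity) (by finiteness) (fun t ht => ?_) (fun t ht => ?_) t ht
  · refine le_trans ?_ (mul_le_mul_right (hB' t ht) _)
    rw [e_N_one, ← ENNReal.tsum_mul_left]
    exact ENNReal.tsum_le_tsum fun n => mul_le_mul_left (e_W_le R n) _
  · refine (e_duh_N ht.1 (duh t ht.1) _).trans (add_le_add (e_N_le hc R) ?_)
    refine setLIntegral_mono' measurableSet_Ioc fun s hs => ?_
    exact (hN _ (e_W_neg R) (e_W_add hR) _ (hB' s ⟨hs.1.le, hs.2.trans ht.2⟩)).trans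
      (mul_le_mul_left hD1 _)

end Vale.Agent.P139
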