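import Vale.Agent.P139.E.Pers

/-! P139 part E: independent variables charge every weighted `ℓ¹` ball; Gaussian facts. -/

noncomputable section

open MeasureTheory ProbabilityTheory Filter Topology Set Complex
open scoped ENNReal NNReal

namespace Vale.Agent.P139

theorem e_core {ι Ω : Type} [Countable ι] [MeasurableSpace Ω] (P : Measure Ω)
    [IsProbabilityMeasure P] (μ : Measure ℂ) (g : ι → Ω → ℂ) (hi : iIndepFun g P)
    (hl : ∀ n, HasLaw (g n) μ P) (hμ : ∫⁻ z, ‖z‖ₑ ∂μ ≠ ∞)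
    (hb : ∀ z δ, 0 < δ → μ (Metric.ball z δ) ≠ 0) (a : ι → ℝ≥0∞) (ha : ∑' n, a n ≠ ∞) (b : ι → ℂ)
    (hab : ∑' n, a n * ‖b n‖ₑ ≠ ∞) {ε : ℝ≥0∞} (hε : ε ≠ 0) :
    ¬ ∀ᵐ ω ∂P, ε ≤ ∑' n, a n * ‖g n ω - b n‖ₑ := by
  classical
  intro hae
  set E := ∫⁻ z, ‖z‖ₑ ∂μ with hE
  have hε2 : ε / 2 ≠ 0 := (ENNReal.half_pos hε).ne'
  have hh : ∑' n, a n * (E + ‖b n‖ₑ) ≠ ∞ := by
    simp only [mul_add]
    rw [ENNReal.tsum_add, ENNReal.tsum_mul_right]
    finiteness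
  obtain ⟨F, hF⟩ := ((ENNReal.tendsto_tsum_compl_atTop_zero hh).eventually
    (gt_mem_nhds (pos_iff_ne_zero.2 hε2))).exists
  obtain ⟨δ, hδ, hδ'⟩ := ENNReal.exists_nnreal_pos_mul_lt ha hε2
  have hm : ∀ n, AEMeasurable (g n) P := fun n => (hl n).aemeasurable
  set S : Set (F → ℂ) := Set.pi univ fun i => Metric.ball (b i) δ with hS
  have mS : MeasurableSet S := MeasurableSet.univ_pi fun _ => Metric.isOpen_ball.measurableSet
  set G : Ω → F → ℂ := fun ω i => g i ω with hG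
  have mG : AEMeasurable G P := aemeasurable_pi_lambda _ fun i => hm i
  set χ : Ω → ℝ≥0∞ := fun ω => S.indicator 1 (G ω) with hχ
  have mχ : AEMeasurable χ P := (measurable_one.indicator mS).comp_aemeasurable mG
  have p1 : ∫⁻ ω, χ ω ∂P = P (G ⁻¹' S) :=
    lintegral_indicator_one₀ (mG.nullMeasurableSet_preimage mS)
  have p2 : G ⁻¹' S = ⋂ i ∈ F, g i ⁻¹' Metric.ball (b i) δ := by
    ext ω
    simp [hS, hG]
  have p3 : P (G ⁻¹' S) ≠ 0 := by
    rw [p2, hi.measure_inter_preimage_eq_mul F fun _ _ => Metric.isOpen_ball.measurableSet]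
    refine Finset.prod_ne_zero_iff.2 fun i _ => ?_
    rw [← Measure.map_apply_of_aemeasurable (hm i) Metric.isOpen_ball.measurableSet, (hl i).map_eq]
    exact hb _ _ hδ
  set p := P (G ⁻¹' S) with hp
  have mn : ∀ n, AEMeasurable (fun ω => ‖g n ω - b n‖ₑ) P := fun n =>
    ((hm n).sub_const _).enorm
  have q1 : ∀ n ∈ F, ∫⁻ ω, χ ω * (a n * ‖g n ω - b n‖ₑ) ∂P ≤ p * (δ * a n) := fun n hn => by
    rw [← p1, ← lintegral_mul_const'' _ mχ]
    refine lintegral_mono fun ω => ?_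
    by_cases hω : G ω ∈ S
    · have h1 : ‖g n ω - b n‖ < δ := mem_ball_iff_norm.1 (hω ⟨n, hn⟩ (mem_univ _))
      have h2 : ‖g n ω - b n‖ₑ ≤ δ := by
        rw [enorm_eq_nnnorm]
        exact_mod_cast h1.le
      rw [mul_comm (δ : ℝ≥0∞)]
      gcongr
    · simp [hχ, hω]
  have q2 : ∀ n ∉ F, ∫⁻ ω, χ ω * (a n * ‖g n ω - b n‖ₑ) ∂P ≤ p * (a n * (E + ‖b n‖ₑ)) :=
    fun n hn => by
    have h1 := (hi.indepFun_finset₀ F {n} (Finset.disjoint_singleton_right.2 hn) hm).comp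
      (φ := S.indicator (1 : (F → ℂ) → ℝ≥0∞))
      (ψ := fun y : ({n} : Finset ι) → ℂ => a n * ‖y ⟨n, Finset.mem_singleton_self n⟩ - b n‖ₑ)
      (measurable_one.indicator mS) (by fun_prop)
    have h2 := lintegral_mul_eq_lintegral_mul_lintegral_of_indepFun'' mχ ((mn n).const_mul (a n)) h1
    rw [h2, p1, lintegral_const_mul'' _ (mn n)]
    gcongr
    calc ∫⁻ ω, ‖g n ω - b n‖ₑ ∂P ≤ ∫⁻ ω, (‖g n ω‖ₑ + ‖b n‖ₑ) ∂P :=
          lintegral_mono fun ω => enorm_sub_le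
      _ = E + ‖b n‖ₑ := by
          rw [lintegral_add_right _ measurable_const, lintegral_const, measure_univ, mul_one,
            (hl n).lintegral_comp (f := fun z => ‖z‖ₑ) (by fun_prop)]
  have main : p * ε ≤ p * (δ * ∑' n, a n + ∑' n : {x // x ∉ F}, a n * (E + ‖b n‖ₑ)) := by
    calc p * ε = ∫⁻ ω, χ ω * ε ∂P := by rw [lintegral_mul_const'' _ mχ, p1]
      _ ≤ ∫⁻ ω, ∑' n, χ ω * (a n * ‖g n ω - b n‖ₑ) ∂P := by
          refine lintegral_mono_ae ?_
          filter_upwards [hae] with ω hω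
          rw [ENNReal.tsum_mul_left]
          gcongr
      _ = ∑' n, ∫⁻ ω, χ ω * (a n * ‖g n ω - b n‖ₑ) ∂P :=
          lintegral_tsum fun n => mχ.mul ((mn n).const_mul _)
      _ ≤ _ := by
          rw [← ENNReal.sum_add_tsum_compl F, mul_add, ← ENNReal.tsum_mul_left,
            ← ENNReal.tsum_mul_left, ← ENNReal.tsum_mul_left]
          refine add_le_add ((Finset.sum_le_sum q1).trans (ENNReal.sum_le_tsum F)) ?_
          exact ENNReal.tsum_le_tsum fun n => q2 n n.2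
  have h3 := (ENNReal.mul_le_mul_iff_right p3 (measure_ne_top _ _)).1 main
  have h4 := ENNReal.add_lt_add hδ' hF
  rw [ENNReal.add_halves] at h4
  exact absurd h3 (not_le.2 h4)

theorem e_meas : Measurable fun z : ℝ × ℝ => (z.1 : ℂ) + (z.2 : ℂ) * I := by fun_prop

theorem e_gauss_prob (v : ℝ≥0) : IsProbabilityMeasure (cGauss v) :=
  Measure.isProbabilityMeasure_map e_meas.aemeasurable

theorem e_gauss_int (v : ℝ≥0) : ∫⁻ z, ‖z‖ₑ ∂(cGauss v) ≠ ∞ := by
  have h1 : Integrable (fun x : ℝ => x) (gaussianReal 0 v) :=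
    memLp_one_iff_integrable.1 (memLp_id_gaussianReal 1)
  have h2 : Integrable (fun z : ℝ × ℝ => (z.1 : ℂ) + (z.2 : ℂ) * I)
      ((gaussianReal 0 v).prod (gaussianReal 0 v)) :=
    (h1.ofReal.comp_fst _).add ((h1.ofReal.comp_snd _).mul_const I)
  rw [cGauss, lintegral_map (by fun_prop) e_meas]
  exact h2.2.ne

theorem e_gauss_ball {v : ℝ≥0} (hv : v ≠ 0) (z : ℂ) (δ : ℝ) (hδ : 0 < δ) :
    cGauss v (Metric.ball z δ) ≠ 0 := by
  have : (gaussianReal 0 v).IsOpenPosMeasure :=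
    (gaussianReal_absolutelyContinuous' 0 hv).isOpenPosMeasure
  rw [cGauss, Measure.map_apply e_meas Metric.isOpen_ball.measurableSet]
  refine IsOpen.measure_ne_zero _ (Metric.isOpen_ball.preimage (by fun_prop)) ⟨(z.re, z.im), ?_⟩
  simpa using hδ

end Vale.Agent.P139
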