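import Vale.Agent.P139.DefT

/-! P139 part E: lattice sums, the weight, and the embedding of `H^k` in `ℓ¹`. -/

noncomputable section

open MeasureTheory Filter Topology Set Complex
open scoped ENNReal

namespace Vale.Agent.P139

theorem e_nsq_nonneg (n : Z12) : 0 ≤ nsq n := Finset.sum_nonneg fun _ _ => sq_nonneg _

theorem e_sum_int {r : ℝ} (hr : 1 / 2 < r) : Summable fun x : ℤ => (1 + (x : ℝ) ^ 2) ^ (-r) := by
  refine Summable.of_norm_bounded_eventually (Real.summable_abs_int_rpow (b := 2 * r) (by linarith))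
    ?_
  filter_upwards [eventually_cofinite_ne 0] with x hx
  have h0 : 0 < |(x : ℝ)| := abs_pos.2 (by exact_mod_cast hx)
  rw [Real.norm_of_nonneg (by positivity), show -(2 * r) = 2 * (-r) by ring,
    Real.rpow_mul h0.le, Real.rpow_two, sq_abs]
  exact Real.rpow_le_rpow_of_nonpos (by rw [← sq_abs]; positivity) (by linarith) (by linarith)

theorem e_sum_rpow {s : ℝ} (hs : 6 < s) : Summable fun n : Z12 => (1 + nsq n) ^ (-s) := by
  classical
  have h1 := e_sum_int (r := s / 12) (by linarith)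
  set f : ℤ → ℝ := fun x => (1 + (x : ℝ) ^ 2) ^ (-(s / 12)) with hf
  have f0 : ∀ x, 0 ≤ f x := fun x => by simp only [hf]; positivity
  have hp : ∀ n : Z12, 0 < 1 + nsq n := fun n => by linarith [e_nsq_nonneg n]
  have key : ∀ n : Z12, (1 + nsq n) ^ (-s) ≤ ∏ j, f (n j) := fun n => by
    have e : (1 + nsq n) ^ (-s) = ∏ _j : Fin 12, (1 + nsq n) ^ (-(s / 12)) := by
      rw [Finset.prod_const, Finset.card_univ, Fintype.card_fin, ← Real.rpow_natCast,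
        ← Real.rpow_mul (hp n).le]
      congr 1
      push_cast
      ring
    rw [e]
    refine Finset.prod_le_prod (fun _ _ => Real.rpow_nonneg (hp n).le _) fun j _ => ?_
    refine Real.rpow_le_rpow_of_nonpos (by positivity) ?_ (by linarith)
    have : (n j : ℝ) ^ 2 ≤ nsq n :=
      Finset.single_le_sum (f := fun j => (n j : ℝ) ^ 2) (fun _ _ => sq_nonneg _)
        (Finset.mem_univ j)
    linarith
  refine summable_of_sum_le (c := (∑' x, f x) ^ 12) (fun n => Real.rpow_nonneg (hp n).le _)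
    fun F => ?_
  calc ∑ n ∈ F, (1 + nsq n) ^ (-s) ≤ ∑ n ∈ F, ∏ j, f (n j) := Finset.sum_le_sum fun n _ => key n
    _ ≤ ∑ n ∈ Fintype.piFinset (fun j => F.image (fun n => n j)), ∏ j, f (n j) := by
      refine Finset.sum_le_sum_of_subset_of_nonneg (fun n hn => ?_)
        fun n _ _ => Finset.prod_nonneg fun j _ => f0 _
      exact Fintype.mem_piFinset.2 fun j => Finset.mem_image_of_mem _ hn
    _ = ∏ j : Fin 12, ∑ x ∈ F.image (fun n => n j), f x := (Finset.prod_univ_sum _ _).symm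
    _ ≤ ∏ _j : Fin 12, ∑' x, f x :=
      Finset.prod_le_prod (fun _ _ => Finset.sum_nonneg fun _ _ => f0 _)
        fun _ _ => h1.sum_le_tsum _ fun _ _ => f0 _
    _ = (∑' x, f x) ^ 12 := by simp

theorem e_norm_zE (n : Z12) : ‖zE n‖ ^ 2 = nsq n := by
  rw [EuclideanSpace.real_norm_sq_eq]
  rfl

theorem e_zE_sub (n k : Z12) : zE n = zE k + zE (n - k) := by
  ext j
  simp [zE]

theorem e_zE_neg (n : Z12) : zE (-n) = -zE n := by
  ext j
  simp [zE]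

theorem e_Wt_one (ξ : E12) : 1 ≤ Wt ξ := by
  unfold Wt
  have : 0 ≤ ‖ξ‖ ^ 20 := by positivity
  linarith

theorem e_Wt_le (n : Z12) : Wt (zE n) ≤ 2 * (1 + nsq n) ^ 10 := by
  have h0 := e_nsq_nonneg n
  have h1 : ‖zE n‖ ^ 20 = nsq n ^ 10 := by rw [← e_norm_zE]; ring
  have h2 : nsq n ^ 10 ≤ (1 + nsq n) ^ 10 := pow_le_pow_left₀ h0 (by linarith) _
  have h3 : 1 ≤ (1 + nsq n) ^ 10 := one_le_pow₀ (by linarith)
  unfold Wt
  linarith

theorem e_Wt_max (ξ η : E12) : Wt (ξ + η) ≤ 2 ^ 20 * max (Wt ξ) (Wt η) := by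
  have key : ∀ ξ η : E12, ‖η‖ ≤ ‖ξ‖ → Wt (ξ + η) ≤ 2 ^ 20 * Wt ξ := fun ξ η h => by
    have h1 : ‖ξ + η‖ ≤ 2 * ‖ξ‖ := by linarith [norm_add_le ξ η]
    have h2 := pow_le_pow_left₀ (norm_nonneg _) h1 20
    rw [mul_pow] at h2
    unfold Wt
    linarith
  rcases le_total ‖η‖ ‖ξ‖ with h | h
  · exact (key ξ η h).trans (by gcongr; exact le_max_left _ _)
  · rw [add_comm]
    exact (key η ξ h).trans (by gcongr; exact le_max_right _ _)

/-- The truncated weight. -/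
def eW (R : ℝ) (n : Z12) : ℝ≥0∞ := ENNReal.ofReal (min (Wt (zE n)) R)

theorem e_W_neg (R : ℝ) (n : Z12) : eW R (-n) = eW R n := by
  simp [eW, e_zE_neg, Wt]

theorem e_W_le (R : ℝ) (n : Z12) : eW R n ≤ ENNReal.ofReal R :=
  ENNReal.ofReal_le_ofReal (min_le_right _ _)

theorem e_W_le' (R : ℝ) (n : Z12) : eW R n ≤ ENNReal.ofReal (Wt (zE n)) :=
  ENNReal.ofReal_le_ofReal (min_le_left _ _)

theorem e_W_add {R : ℝ} (hR : 0 ≤ R) (n k : Z12) :
    eW R n ≤ ENNReal.ofReal (2 ^ 20) * (eW R k + eW R (n - k)) := by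
  have a1 := e_Wt_one (zE k)
  have a2 := e_Wt_one (zE (n - k))
  have b1 : 0 ≤ min (Wt (zE k)) R := le_min (by linarith) hR
  have b2 : 0 ≤ min (Wt (zE (n - k))) R := le_min (by linarith) hR
  unfold eW
  rw [← ENNReal.ofReal_add b1 b2, ← ENNReal.ofReal_mul (by positivity)]
  refine ENNReal.ofReal_le_ofReal ?_
  have h := e_Wt_max (zE k) (zE (n - k))
  rw [← e_zE_sub] at h
  have c1 := min_le_left (Wt (zE n)) R
  have c2 := min_le_right (Wt (zE n)) R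
  rcases le_total (Wt (zE k)) R with h1 | h1
  · rcases le_total (Wt (zE (n - k))) R with h2 | h2
    · rw [min_eq_left h1, min_eq_left h2]
      have : max (Wt (zE k)) (Wt (zE (n - k))) ≤ Wt (zE k) + Wt (zE (n - k)) :=
        max_le (by linarith) (by linarith)
      linarith
    · rw [min_eq_right h2]
      linarith
  · rw [min_eq_right h1]
    linarith

theorem e_InH_sub {k : ℕ} {c c' : Z12 → ℂ} (h : InH k c) (h' : InH k c') : InH k (c - c') := by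
  refine Summable.of_nonneg_of_le (fun n => ?_) (fun n => ?_) ((h.add h').mul_left 2)
  · have := e_nsq_nonneg n
    positivity
  · have h0 : 0 ≤ (1 + nsq n) ^ k := by have := e_nsq_nonneg n; positivity
    have h1 : ‖(c - c') n‖ ≤ ‖c n‖ + ‖c' n‖ := norm_sub_le _ _
    have h2 : ‖(c - c') n‖ ^ 2 ≤ 2 * (‖c n‖ ^ 2 + ‖c' n‖ ^ 2) := by
      nlinarith [norm_nonneg ((c - c') n), sq_nonneg (‖c n‖ - ‖c' n‖), norm_nonneg (c n),
        norm_nonneg (c' n)]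
    nlinarith [mul_le_mul_of_nonneg_left h2 h0]

theorem e_H_l1 {k : ℕ} (hk : 12 < 2 * k) : ∃ S : ℝ, ∀ c : Z12 → ℂ, InH k c →
    (Summable fun n => ‖c n‖) ∧ ∑' n, ‖c n‖ ≤ hsq k c + S := by
  have hs := e_sum_rpow (s := k) (by exact_mod_cast (by omega : 6 < k))
  refine ⟨∑' n : Z12, (1 + nsq n) ^ (-(k : ℝ)), fun c hc => ?_⟩
  have key : ∀ n, ‖c n‖ ≤ (1 + nsq n) ^ k * ‖c n‖ ^ 2 + (1 + nsq n) ^ (-(k : ℝ)) := fun n => by
    have hp : 0 < 1 + nsq n := by linarith [e_nsq_nonneg n]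
    rw [Real.rpow_neg hp.le, Real.rpow_natCast]
    have hq : 0 < (1 + nsq n) ^ k := by positivity
    generalize (1 + nsq n) ^ k = a at hq
    have h1 : a * a⁻¹ = 1 := mul_inv_cancel₀ hq.ne'
    have h2 : 0 < a⁻¹ := inv_pos.2 hq
    have h3 : 0 ≤ a * (‖c n‖ - a⁻¹) ^ 2 := by positivity
    have h4 : a * (‖c n‖ - a⁻¹) ^ 2 = a * ‖c n‖ ^ 2 - 2 * ‖c n‖ + a⁻¹ := by
      field_simp
      ring
    linarith [norm_nonneg (c n)]
  have h1 : Summable fun n => ‖c n‖ :=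
    Summable.of_nonneg_of_le (fun _ => norm_nonneg _) key (hc.add hs)
  refine ⟨h1, (h1.tsum_le_tsum key (hc.add hs)).trans ?_⟩
  rw [hc.tsum_add hs]
  rfl

theorem e_coef_le {k : ℕ} {c : Z12 → ℂ} (hc : InH k c) (n : Z12) : ‖c n‖ ^ 2 ≤ hsq k c := by
  have h0 : ∀ n, 0 ≤ (1 + nsq n) ^ k * ‖c n‖ ^ 2 := fun n => by
    have := e_nsq_nonneg n
    positivity
  refine le_trans ?_ (hc.le_tsum n fun j _ => h0 j)
  have : 1 ≤ (1 + nsq n) ^ k := one_le_pow₀ (by linarith [e_nsq_nonneg n])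
  nlinarith [sq_nonneg ‖c n‖]

theorem e_sol_cont {p k : ℕ} {c : Z12 → ℂ} {u : ℝ → Z12 → ℂ} (h : GlobalSol p k c u) (n : Z12) :
    ContinuousOn (fun t => u t n) (Ici 0) := fun t ht => by
  rw [ContinuousWithinAt, tendsto_iff_norm_sub_tendsto_zero]
  have h1 := (h.2.1 t ht).sqrt
  rw [Real.sqrt_zero] at h1
  refine squeeze_zero' (Eventually.of_forall fun _ => norm_nonneg _) ?_ h1
  filter_upwards [self_mem_nhdsWithin] with s hs
  exact Real.le_sqrt_of_sq_le (e_coef_le (e_InH_sub (h.1 s hs) (h.1 t ht)) n)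

theorem e_sol_bdd {p k : ℕ} (hk : 12 < 2 * k) {c : Z12 → ℂ} {u : ℝ → Z12 → ℂ}
    (h : GlobalSol p k c u) (T : ℝ) : ∃ B : ℝ, ∀ t ∈ Icc 0 T, ∑' n, ‖u t n‖ ≤ B := by
  obtain ⟨S, hS⟩ := e_H_l1 hk
  refine isCompact_Icc.induction_on (p := fun A => ∃ B : ℝ, ∀ t ∈ A, ∑' n, ‖u t n‖ ≤ B)
    ⟨0, by simp⟩ (fun s t hst ⟨B, hB⟩ => ⟨B, fun x hx => hB x (hst hx)⟩)
    (fun s t ⟨B, hB⟩ ⟨B', hB'⟩ => ⟨max B B', fun x hx => hx.elim
      (fun hx => (hB x hx).trans (le_max_left _ _)) fun hx => (hB' x hx).trans (le_max_right _ _)⟩)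
    fun t ht => ?_
  have h1 := (h.2.1 t ht.1).eventually (gt_mem_nhds one_pos)
  refine ⟨{s | hsq k (u s - u t) < 1} ∩ Icc 0 T, inter_mem
    (nhdsWithin_mono _ Icc_subset_Ici_self h1) self_mem_nhdsWithin,
    (1 + S) + ∑' n, ‖u t n‖, fun s hs => ?_⟩
  obtain ⟨a1, a2⟩ := hS _ (e_InH_sub (h.1 s hs.2.1) (h.1 t ht.1))
  obtain ⟨b1, -⟩ := hS _ (h.1 t ht.1)
  obtain ⟨c1, -⟩ := hS _ (h.1 s hs.2.1)
  have h2 : hsq k (u s - u t) < 1 := hs.1
  calc ∑' n, ‖u s n‖ ≤ ∑' n, (‖(u s - u t) n‖ + ‖u t n‖) :=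
        c1.tsum_le_tsum (fun n => by simpa using norm_add_le (u s n - u t n) (u t n)) (a1.add b1)
    _ = ∑' n, ‖(u s - u t) n‖ + ∑' n, ‖u t n‖ := a1.tsum_add b1
    _ ≤ _ := by linarith

end Vale.Agent.P139
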